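import Mathlib

/-! P116 K/CbBY (helper68): the passage from `grid_one` to `grid_len`, for a general predicate. -/

open MeasureTheory Set Metric Filter Topology Complex
open scoped ENNReal

noncomputable section

namespace Vale.Agent.P116.K

theorem exh_CbBY {W : Set ℂ} (hW : IsOpen W) : ∃ L : ℕ → Set ℂ, (∀ k, IsCompact (L k)) ∧
    (∀ k, L k ⊆ W) ∧ ∀ K, IsCompact K → K ⊆ W → ∀ᶠ k in atTop, K ⊆ L k := by
  refine ⟨fun k => closedBall 0 k ∩ ⋂ y ∈ Wᶜ, {z | 1 / ((k : ℝ) + 1) ≤ dist z y}, fun k => ?_,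
    fun k z hz => ?_, fun K hK hKW => ?_⟩
  · refine (isCompact_closedBall _ _).inter_right (isClosed_biInter fun y _ => ?_)
    exact isClosed_le continuous_const (continuous_id.dist continuous_const)
  · by_contra h
    have h1 := mem_iInter₂.1 hz.2 z h
    simp only [mem_ofPred_eq, dist_self] at h1
    have : (0 : ℝ) < 1 / ((k : ℝ) + 1) := by positivity
    linarith
  · obtain ⟨δ, hδ, hs⟩ := hK.exists_thickening_subset_open hW hKW
    obtain ⟨R, hR⟩ := hK.isBounded.subset_closedBall (0 : ℂ)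
    have h1 : ∀ᶠ k : ℕ in atTop, R ≤ (k : ℝ) := tendsto_natCast_atTop_atTop.eventually_ge_atTop R
    have h2 : ∀ᶠ k : ℕ in atTop, 1 / ((k : ℝ) + 1) ≤ δ :=
      (tendsto_one_div_add_atTop_nhds_zero_nat (𝕜 := ℝ)).eventually (ge_mem_nhds hδ)
    filter_upwards [h1, h2] with k hk1 hk2 z hz
    refine ⟨closedBall_subset_closedBall hk1 (hR hz), mem_iInter₂.2 fun y hy => ?_⟩
    by_contra h
    simp only [mem_ofPred_eq, not_le] at h
    exact hy (hs (mem_thickening_iff.2 ⟨z, hz, by rw [dist_comm]; linarith⟩))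

theorem grid_len_CbBY {W : Set ℂ} (hW : IsOpen W) (C : Set ℂ → ℝ → ℝ≥0∞ → Prop)
    (mono : ∀ K s s' c c', s ≤ s' → c ≤ c' → C K s c → C K s' c') (A : ℝ≥0∞) (u : ℂ → ℝ)
    (one : ∀ L, IsCompact L → L ⊆ W → ∀ s₀ ε : ℝ, 0 < s₀ → 0 < ε → ∃ N : ℝ → ℝ≥0∞, Measurable N ∧
      ∫⁻ t, N t ≤ A + ENNReal.ofReal ε ∧
      ∀ (t : ℝ) (K : Set ℂ), K ⊆ L → (∀ z ∈ K, u z = t) → C K s₀ (N t)) :
    ∃ N : ℝ → ℝ≥0∞, ∫⁻ t, N t ≤ A ∧ Measurable N ∧
      ∀ (t : ℝ) (K : Set ℂ), IsCompact K → K ⊆ W → (∀ z ∈ K, u z = t) → ∀ s₀ η : ℝ, 0 < s₀ →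
        0 < η → C K s₀ (N t + ENNReal.ofReal η) := by
  obtain ⟨L, hL, hLW, hLK⟩ := exh_CbBY hW
  have hp : ∀ k : ℕ, (0 : ℝ) < 1 / ((k : ℝ) + 1) := fun k => by positivity
  choose N hN hI hC using fun k : ℕ => one (L k) (hL k) (hLW k) _ _ (hp k) (hp k)
  have ht : Tendsto (fun k : ℕ => 1 / ((k : ℝ) + 1)) atTop (𝓝 0) :=
    tendsto_one_div_add_atTop_nhds_zero_nat
  refine ⟨fun t => liminf (fun k => N k t) atTop, ?_, Measurable.liminf hN, ?_⟩
  · refine (lintegral_liminf_le hN).trans ?_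
    have h1 : Tendsto (fun k : ℕ => A + ENNReal.ofReal (1 / ((k : ℝ) + 1))) atTop (𝓝 A) := by
      have := (ENNReal.tendsto_ofReal ht).const_add A
      simpa using this
    rw [← h1.liminf_eq]
    exact liminf_le_liminf (Eventually.of_forall hI)
  · intro t K hK hKW hu s₀ η hs hη
    have h1 : ∀ᶠ k : ℕ in atTop, K ⊆ L k ∧ 1 / ((k : ℝ) + 1) ≤ s₀ :=
      (hLK K hK hKW).and (ht.eventually (ge_mem_nhds hs))
    have h2 : ∃ᶠ k : ℕ in atTop, N k t ≤ liminf (fun k => N k t) atTop + ENNReal.ofReal η := by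
      by_cases h : liminf (fun k => N k t) atTop = ⊤
      · exact Frequently.of_forall fun k => by rw [h]; simp
      · have h3 := ENNReal.lt_add_right h (ENNReal.ofReal_pos.2 hη).ne'
        exact (frequently_lt_of_liminf_lt (by isBoundedDefault) h3).mono fun k hk => hk.le
    obtain ⟨k, hk, hk1, hk2⟩ := (h2.and_eventually h1).exists
    exact mono _ _ _ _ _ hk2 hk (hC k t K hk1 hu)

end Vale.Agent.P116.K
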