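import Mathlib

/-! P116 K/Dm18 (helper18): near minimal norm elements of decreasing convex sets, domination. -/

open Set Metric Filter Topology

noncomputable section

namespace Vale.Agent.P116.K

/-- Rapidly convergent selection from a decreasing sequence of midpoint convex sets. -/
theorem cauchy18 {X H : Type*} [NormedAddCommGroup H] [InnerProductSpace ℝ H] (v : X → H)
    {T : ℕ → Set X} (ha : Antitone T) (hne : ∀ k, (T k).Nonempty) {M : ℝ}
    (hM : ∀ k, ∀ x ∈ T k, ‖v x‖ ≤ M)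
    (hc : ∀ k, ∀ x ∈ T k, ∀ y ∈ T k, ∃ z ∈ T k, v z = (1 / 2 : ℝ) • (v x + v y))
    {ε : ℝ} (hε : 0 < ε) :
    ∃ t : ℕ → X, (∀ k, t k ∈ T k) ∧ ∀ k, ‖v (t (k + 1)) - v (t k)‖ ≤ ε / 2 ^ k := by
  let m : ℕ → ℝ := fun k => sInf ((fun x => ‖v x‖ ^ 2) '' T k)
  have hb : ∀ k, BddBelow ((fun x => ‖v x‖ ^ 2) '' T k) := fun k =>
    ⟨0, by rintro _ ⟨x, -, rfl⟩; positivity⟩
  have hm : ∀ k, ∀ x ∈ T k, m k ≤ ‖v x‖ ^ 2 := fun k x hx => csInf_le (hb k) ⟨x, hx, rfl⟩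
  have hmono : Monotone m := fun k l h =>
    csInf_le_csInf (hb k) ((hne l).image _) (image_mono (ha h))
  have hbd : BddAbove (range m) := by
    refine ⟨M ^ 2, ?_⟩
    rintro _ ⟨k, rfl⟩
    obtain ⟨x, hx⟩ := hne k
    exact (hm k x hx).trans (pow_le_pow_left₀ (norm_nonneg _) (hM k x hx) 2)
  have key : ∀ k : ℕ, ∀ δ : ℝ, 0 < δ → ∃ l, k ≤ l ∧ (⨆ i, m i) < m l + δ ∧
      ∃ x ∈ T l, ‖v x‖ ^ 2 < (⨆ i, m i) + δ := by
    intro k δ hδ
    obtain ⟨l, hl⟩ := exists_lt_of_lt_ciSup (show (⨆ i, m i) - δ < ⨆ i, m i by linarith)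
    have h1 := hmono (le_max_right k l)
    refine ⟨max k l, le_max_left _ _, by linarith, ?_⟩
    obtain ⟨_, ⟨x, hx, rfl⟩, h2⟩ := exists_lt_of_csInf_lt ((hne (max k l)).image
      fun x => ‖v x‖ ^ 2) (show m (max k l) < m (max k l) + δ by linarith)
    exact ⟨x, hx, h2.trans_le (by linarith [le_ciSup hbd (max k l)])⟩
  choose L hL1 hL2 t ht1 ht2 using fun k : ℕ => key k ((ε / 2 ^ k) ^ 2 / 8) (by positivity)
  refine ⟨t, fun k => ha (hL1 k) (ht1 k), fun k => ?_⟩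
  have h1 : (ε / 2 ^ (k + 1)) ^ 2 / 8 ≤ (ε / 2 ^ k) ^ 2 / 8 := by
    gcongr
    · norm_num
    · omega
  have h2 : (⨆ i, m i) < m (min (L k) (L (k + 1))) + (ε / 2 ^ k) ^ 2 / 8 := by
    rcases min_choice (L k) (L (k + 1)) with e | e <;> rw [e]
    · exact hL2 k
    · linarith [hL2 (k + 1)]
  obtain ⟨z, hz, e⟩ := hc _ _ (ha (min_le_right (L k) (L (k + 1))) (ht1 (k + 1))) _
    (ha (min_le_left (L k) (L (k + 1))) (ht1 k))
  have h3 := hm _ z hz
  rw [e, norm_smul, mul_pow] at h3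
  have h4 := parallelogram_law_with_norm ℝ (v (t (k + 1))) (v (t k))
  have h5 := ht2 k
  have h6 := ht2 (k + 1)
  refine abs_le_of_sq_le_sq' ?_ (by positivity) |>.2
  norm_num at h3
  nlinarith

/-- Domination in a complete normed lattice. -/
theorem dom18 {H : Type*} [NormedAddCommGroup H] [Lattice H] [HasSolidNorm H]
    [IsOrderedAddMonoid H] [CompleteSpace H] (u : ℕ → H) {ε : ℝ}
    (h : ∀ k, ‖u (k + 1) - u k‖ ≤ ε / 2 ^ k) :
    ∃ g : H, 0 ≤ g ∧ ‖g‖ ≤ 2 * ε ∧ ∀ k, u k ≤ u 0 + g := by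
  have hs : HasSum (fun k : ℕ => ε / 2 ^ k) (2 * ε) := by
    have := hasSum_geometric_two.mul_left ε
    simpa [div_eq_mul_inv, mul_comm] using this
  have h1 : ∀ k, ‖|u (k + 1) - u k|‖ ≤ ε / 2 ^ k := fun k => by rw [norm_abs_eq_norm]; exact h k
  have h2 : Summable fun k => |u (k + 1) - u k| := Summable.of_norm_bounded hs.summable h1
  refine ⟨∑' k, |u (k + 1) - u k|, tsum_nonneg fun k => abs_nonneg _,
    tsum_of_norm_bounded hs h1, fun k => ?_⟩
  have h3 : u k ≤ u 0 + ∑ i ∈ Finset.range k, |u (i + 1) - u i| := by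
    induction k with
    | zero => simp
    | succ k ih =>
      rw [Finset.sum_range_succ, ← add_assoc]
      calc u (k + 1) = u k + (u (k + 1) - u k) := by abel
        _ ≤ _ := add_le_add ih (le_abs_self _)
  exact h3.trans (add_le_add le_rfl (h2.sum_le_tsum _ fun i _ => abs_nonneg _))

end Vale.Agent.P116.K
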