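import Mathlib

/-! P116 K/Mm18 (helper18): minimax for the maximum of finitely many Hilbert norms. -/

open Set Metric

noncomputable section

namespace Vale.Agent.P116.K

theorem minimax18 {φ : Type*} [Fintype φ] {H : φ → Type*} [∀ i, NormedAddCommGroup (H i)]
    [∀ i, InnerProductSpace ℝ (H i)] [∀ i, CompleteSpace (H i)] {S : Set (∀ i, H i)}
    (hS : Convex ℝ S) {c : ℝ} (hc : 0 ≤ c)
    (h : ∀ t : ∀ i, H i, ∀ η : ℝ, 0 < η →
      ∃ p ∈ S, ∑ i, inner ℝ (t i) (p i) ≤ c * ∑ i, ‖t i‖ + η)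
    {η : ℝ} (hη : 0 < η) : ∃ p ∈ S, ∀ i, ‖p i‖ ≤ c + η := by
  classical
  by_contra hn
  have hd : Disjoint (ball (0 : ∀ i, H i) (c + η)) S := by
    refine Set.disjoint_left.2 fun p hp hs => hn ⟨p, hs, fun i => ?_⟩
    exact (norm_le_pi_norm p i).trans (mem_ball_zero_iff.1 hp).le
  obtain ⟨f, u, h1, h2⟩ := geometric_hahn_banach_open (convex_ball _ _) isOpen_ball hS hd
  let t : ∀ i, H i := fun i => (InnerProductSpace.toDual ℝ (H i)).symm
    (f.comp (ContinuousLinearMap.single ℝ H i))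
  have hf : ∀ x : ∀ i, H i, f x = ∑ i, inner ℝ (t i) (x i) := by
    intro x
    conv_lhs => rw [← Finset.univ_sum_single x, map_sum]
    refine Finset.sum_congr rfl fun i _ => ?_
    simp [t]
  have hu : 0 < u := by
    simpa using h1 0 (mem_ball_self (by positivity))
  have hx : (c + η / 2) * ∑ i, ‖t i‖ < u := by
    have := h1 (fun i => ((c + η / 2) / ‖t i‖) • t i) (by
      rw [mem_ball_zero_iff, pi_norm_lt_iff (by positivity)]
      intro i
      rw [norm_smul, Real.norm_of_nonneg (by positivity)]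
      rcases eq_or_ne ‖t i‖ 0 with e | e
      · rw [e, mul_zero]; positivity
      · rw [div_mul_cancel₀ _ e]; linarith)
    rw [hf] at this
    refine lt_of_eq_of_lt ?_ this
    rw [Finset.mul_sum]
    refine Finset.sum_congr rfl fun i _ => ?_
    rw [inner_smul_right, real_inner_self_eq_norm_sq]
    rcases eq_or_ne ‖t i‖ 0 with e | e
    · simp [e]
    · field_simp
  have h0 : 0 ≤ ∑ i, ‖t i‖ := Finset.sum_nonneg fun i _ => norm_nonneg _
  obtain ⟨p, hp, h3⟩ := h t (u - (c + η / 2) * ∑ i, ‖t i‖) (by linarith)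
  have h4 := h2 p hp
  rw [hf] at h4
  rcases h0.eq_or_lt with e | e
  · have h5 : ∀ i, t i = 0 := fun i => norm_eq_zero.1
      ((Finset.sum_eq_zero_iff_of_nonneg fun i _ => norm_nonneg _).1 e.symm i (Finset.mem_univ i))
    simp [h5] at h4
    linarith
  · nlinarith [mul_pos hη e]

end Vale.Agent.P116.K
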